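import Vale.Agent.Helper29.KTVG.Deg
import Vale.Agent.Helper16.KTV.Chain

/-!
# P335, general graphs: the column-even case (module M3b-ii)

Where `w` and `z` each see both or none of `u`, `v`, the fibre of the pair `{u,v}` is the
fibre of its outer slots, so the pair heat bath equals the outer heat bath there.
-/

set_option linter.unusedSectionVars false
set_option linter.unusedSimpArgs false

namespace KTVG

open Finset Vale.Agent.Helper13.Switch
open Classical

variable {n : ℕ}

/-- block slots are frozen in the pair fibre of a column-even graph -/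
theorem colEven_block {d : Fin n → ℕ} {u v x : Fin n} (huv : u ≠ v) (hxu : x ≠ u) (hxv : x ≠ v)
    {G G' : SimpleGraph (Fin n)} (hG : G ∈ gOmega n d) (hG' : G' ∈ gOmega n d)
    (hlab : labP u v G' = labP u v G) (hce : G.Adj u x ↔ G.Adj v x) :
    (G'.Adj x u ↔ G.Adj x u) ∧ (G'.Adj x v ↔ G.Adj x v) := by
  have h1 := adjN_pair_of_labP hG' hG huv hlab hxu hxv
  have h2 : adjN G x u = adjN G x v := by
    rw [adjN_comm G x u, adjN_comm G x v]
    unfold adjN
    by_cases h : G.Adj u x
    · rw [if_pos h, if_pos (hce.1 h)]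
    · rw [if_neg h, if_neg (fun h' => h (hce.2 h'))]
  have a1 := adjN_le_one G x u
  have a2 := adjN_le_one G' x u
  have a3 := adjN_le_one G' x v
  have e1 : adjN G' x u = adjN G x u := by omega
  have e2 : adjN G' x v = adjN G x v := by omega
  exact ⟨adj_iff_of_adjN_eq e1, adj_iff_of_adjN_eq e2⟩

/-- in the class of a column-even graph the pair label and the outer label have the same
fibre -/
theorem colEven_class {d : Fin n → ℕ} {u v w z : Fin n} (h4 : D4 u v w z)
    {G G' : SimpleGraph (Fin n)} (hG : G ∈ gOmega n d) (hG' : G' ∈ gOmega n d)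
    (hce : ColEven u v w z G) :
    labP u v G' = labP u v G ↔ labT u v w z G' = labT u v w z G := by
  obtain ⟨huv, huw, huz, hvw, hvz, hwz⟩ := h4
  constructor
  · intro hlab
    have hP := (labP_eq_iff u v G' G).1 hlab
    have hw := colEven_block huv huw.symm hvw.symm hG hG' hlab hce.1
    have hz := colEven_block huv huz.symm hvz.symm hG hG' hlab hce.2
    have huvA : G'.Adj u v ↔ G.Adj u v := adj_uv_of_labP hG' hG huv hlab
    unfold labT
    rw [slotLab_eq_iff]
    intro x y hxy
    have hR : ∀ a b : Fin n, (a = u ∨ a = v) → ¬ Rbet {u, v} (Finset.univ \ {u, v, w, z}) a b →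
        (b = u ∨ b = v ∨ b = w ∨ b = z) := by
      intro a b ha hab
      by_contra hb
      push Not at hb
      apply hab
      left
      refine ⟨by simpa using ha, ?_⟩
      simp [hb.1, hb.2.1, hb.2.2.1, hb.2.2.2]
    have key : ∀ a b : Fin n, (a = u ∨ a = v) → (b = u ∨ b = v ∨ b = w ∨ b = z) →
        (G'.Adj a b ↔ G.Adj a b) := by
      intro a b ha hb
      rcases ha with rfl | rfl
      · rcases hb with rfl | rfl | rfl | rfl
        · exact ⟨fun h => absurd h (G'.irrefl), fun h => absurd h (G.irrefl)⟩
        · exact huvA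
        · exact ⟨fun h => (hw.1.1 h.symm).symm, fun h => (hw.1.2 h.symm).symm⟩
        · exact ⟨fun h => (hz.1.1 h.symm).symm, fun h => (hz.1.2 h.symm).symm⟩
      · rcases hb with rfl | rfl | rfl | rfl
        · exact ⟨fun h => (huvA.1 h.symm).symm, fun h => (huvA.2 h.symm).symm⟩
        · exact ⟨fun h => absurd h (G'.irrefl), fun h => absurd h (G.irrefl)⟩
        · exact ⟨fun h => (hw.2.1 h.symm).symm, fun h => (hw.2.2 h.symm).symm⟩
        · exact ⟨fun h => (hz.2.1 h.symm).symm, fun h => (hz.2.2 h.symm).symm⟩
    by_cases hx : x = u ∨ x = v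
    · exact key x y hx (hR x y hx hxy)
    · by_cases hy : y = u ∨ y = v
      · have hxy' : ¬ Rbet {u, v} (Finset.univ \ {u, v, w, z}) y x := by
          intro h
          apply hxy
          rcases h with h | h
          · exact Or.inr ⟨h.2, h.1⟩
          · exact Or.inl ⟨h.2, h.1⟩
        have := key y x hy (hR y x hy hxy')
        exact ⟨fun h => (this.1 h.symm).symm, fun h => (this.2 h.symm).symm⟩
      · push Not at hx hy
        exact hP x y hx.1 hx.2 hy.1 hy.2
  · intro hlab
    unfold labT at hlab
    rw [slotLab_eq_iff] at hlab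
    rw [labP_eq_iff]
    intro x y hxu hxv hyu hyv
    apply hlab
    intro h
    rcases h with h | h
    · have := h.1
      simp [hxu, hxv] at this
    · have := h.2
      simp [hyu, hyv] at this

/-- **M3b-ii.** -/
theorem colEvenStmt (n : ℕ) (d : Fin n → ℕ) : ColEvenStmt n d := by
  intro u v w z h4 f G hG hce
  rw [KTV.cexpL_eq, KTV.cexpL_eq]
  have hfil : (gOmega n d).filter (fun y => labP u v y = labP u v G)
      = (gOmega n d).filter (fun y => labT u v w z y = labT u v w z G) := by
    ext G'
    simp only [Finset.mem_filter]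
    constructor
    · rintro ⟨hG', e⟩
      exact ⟨hG', (colEven_class h4 hG hG' hce).1 e⟩
    · rintro ⟨hG', e⟩
      exact ⟨hG', (colEven_class h4 hG hG' hce).2 e⟩
  rw [hfil]

end KTVG
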